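import Mathlib
import Vale.Agent.P202.Defs
import Vale.Agent.P202.Basic
import Vale.Agent.P202.ChainFlat
import Vale.Agent.P202.Ind
import Vale.Agent.P202.RegSeq
import Vale.Agent.P202.Asymp
import Vale.Agent.P202.Dim

open IsLocalRing Filter Topology

namespace Vale.Agent.Results.P202.MinimalMultFibre

open Vale.Agent.P202

universe u v

theorem result {R : Type u} {S : Type v} [CommRing R] [CommRing S] [IsLocalRing R] [IsLocalRing S]
    [IsNoetherianRing R] [IsNoetherianRing S] [Algebra R S] [Module.Flat R S]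
    [IsLocalHom (algebraMap R S)] (z : List S)
    (hreg : RingTheory.Sequence.IsRegular (S ⧸ (maximalIdeal R).map (algebraMap R S)) z)
    (h2 : maximalIdeal S ^ 2 ≤ (maximalIdeal R).map (algebraMap R S) ⊔ Ideal.ofList z)
    (hv : ∀ y : S, maximalIdeal S ≠
      (maximalIdeal R).map (algebraMap R S) ⊔ Ideal.ofList z ⊔ Ideal.span {y})
    {eR eS : ℝ} (hR : IsHilbertSamuelMultiplicity R eR) (hS : IsHilbertSamuelMultiplicity S eS) :
    eR ≤ eS ∧
      eS = ((Module.length S
        (S ⧸ ((maximalIdeal R).map (algebraMap R S) ⊔ Ideal.ofList z))).toNat : ℝ) * eR ∧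
      maximalIdeal S ^ 2 =
        ((maximalIdeal R).map (algebraMap R S) ⊔ Ideal.ofList z) * maximalIdeal S := by
  classical
  set mS := (maximalIdeal R).map (algebraMap R S) with hmS
  set Q := mS ⊔ Ideal.ofList z with hQ
  have hle : Q ≤ maximalIdeal S := mem_maximalIdeal_of_isRegular mS z hreg
  have hregOn : RegOn mS z := regOn_of_isWeaklyRegular z mS hreg.toIsWeaklyRegular
  have hsq : maximalIdeal S ^ 2 = Q * maximalIdeal S :=
    (hasInd_of_regOn z mS hasInd_map_maximalIdeal hregOn).sq_eq_mul hle h2 hv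
  have hpow : ∀ N, maximalIdeal S ^ (N + 1) ≤ Q ^ N := by
    intro N
    rw [pow_succ_eq _ _ hsq N]
    exact Ideal.mul_le_left
  have hpow' : ∀ N, Q ^ N ≤ maximalIdeal S ^ N := fun N => Ideal.pow_right_mono hle N
  have hchain := chain_pow_of_regOn z mS
    (fun N => (Module.length R (R ⧸ maximalIdeal R ^ N)).toNat) (fun N => chain_map_pow N) hregOn
  have hfS : ∀ N, Module.length S (S ⧸ maximalIdeal S ^ N) ≠ ⊤ :=
    fun N => length_quot_ne_top _ N le_rfl
  have hfF : Module.length S (S ⧸ Q) ≠ ⊤ := length_quot_ne_top _ 2 h2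
  have hFpos : 1 ≤ (Module.length S (S ⧸ Q)).toNat := by
    have hne : Q ≠ ⊤ := (hle.trans_lt (maximalIdeal.isMaximal S).lt_top).ne
    have : Nontrivial (S ⧸ Q) := Ideal.Quotient.nontrivial_iff.mpr hne
    have hpos : 0 < Module.length S (S ⧸ Q) := Module.length_pos
    have h3 : (Module.length S (S ⧸ Q)).toNat ≠ 0 := by
      rw [Ne, ENat.toNat_eq_zero]
      rintro (h | h)
      · exact hpos.ne' h
      · exact hfF h
    omega
  have hmul : ∀ N, (Module.length S (S ⧸ Q ^ N)).toNat = (Module.length S (S ⧸ Q)).toNat *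
      iterSum z.length (fun N => (Module.length R (R ⧸ maximalIdeal R ^ N)).toNat) N := by
    intro N
    rw [(hchain N).length, ENat.toNat_mul, ENat.toNat_natCast, mul_comm]
  have hfM : ∀ N, Module.length S (S ⧸ Q ^ N) ≠ ⊤ := by
    intro N
    rw [(hchain N).length]
    exact WithTop.mul_ne_top (ENat.natCast_ne_top _) hfF
  obtain ⟨d, hd, hRt⟩ := hR
  obtain ⟨d', hd', hSt⟩ := hS
  have hdim : d' = d + z.length := by
    have := ringKrullDim_eq_add (R := R) (S := S) z hreg 2 h2
    rw [hd, hd'] at this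
    exact_mod_cast this
  subst hdim
  have hRt' := tendsto_iterSum z.length _ d eR hRt
  have heq : eS = ((Module.length S (S ⧸ Q)).toNat : ℝ) * eR := by
    refine mult_eq_of_sandwich _ _ _ (d + z.length) eR eS ?_ ?_ hRt' hSt
    · intro N
      rw [← hmul N]
      exact ENat.toNat_le_toNat (length_quot_le (hpow' N)) (hfM N)
    · intro N
      rw [← hmul N]
      exact ENat.toNat_le_toNat (length_quot_le (hpow N)) (hfS (N + 1))
  have heR : 0 ≤ eR := by
    refine ge_of_tendsto' hRt (fun N => ?_)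
    positivity
  refine ⟨?_, heq, hsq⟩
  rw [heq]
  have : (1 : ℝ) ≤ ((Module.length S (S ⧸ Q)).toNat : ℝ) := by exact_mod_cast hFpos
  nlinarith

end Vale.Agent.Results.P202.MinimalMultFibre
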