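import Mathlib
import Vale.Agent.P202.Defs
import Vale.Agent.P202.Basic

open IsLocalRing Filter Topology

namespace Vale.Agent.Results.P202.SquareZeroFibre

open Vale.Agent.P202

universe u v

theorem result {R : Type u} {S : Type v} [CommRing R] [CommRing S] [IsLocalRing R] [IsLocalRing S]
    [IsNoetherianRing R] [IsNoetherianRing S] [Algebra R S] [Module.Flat R S]
    [IsLocalHom (algebraMap R S)]
    (h2 : maximalIdeal S ^ 2 ≤ (maximalIdeal R).map (algebraMap R S))
    (hv : ∀ y : S, maximalIdeal S ≠ (maximalIdeal R).map (algebraMap R S) ⊔ Ideal.span {y})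
    {eR eS : ℝ} (hR : IsHilbertSamuelMultiplicity R eR) (hS : IsHilbertSamuelMultiplicity S eS) :
    eR ≤ eS ∧
      eS = ((Module.length S (S ⧸ (maximalIdeal R).map (algebraMap R S))).toNat : ℝ) * eR ∧
      maximalIdeal S ^ 2 = (maximalIdeal R).map (algebraMap R S) * maximalIdeal S := by
  classical
  set mS := (maximalIdeal R).map (algebraMap R S) with hmS
  have hle : mS ≤ maximalIdeal S := map_maximalIdeal_le _
  -- the algebraic identity
  have hsq : maximalIdeal S ^ 2 = mS * maximalIdeal S := by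
    obtain ⟨s, hs, hmin⟩ := exists_min_gens R
    refine sq_eq_mul_of_ind mS (fun i : s => algebraMap R S (i : R)) ?_ ?_ hle h2 hv
    · rw [hmS, ← hs, Ideal.map_span]
      congr 1
      ext x
      simp
    · intro c hc i
      exact flat_rel (fun i : s => (i : R)) hmin c hc i
  have hpow : ∀ N, maximalIdeal S ^ (N + 1) ≤ (maximalIdeal R ^ N).map (algebraMap R S) := by
    intro N
    rw [pow_succ_eq _ _ hsq N, Ideal.map_pow]
    exact Ideal.mul_le_left
  have hpow' : ∀ N, (maximalIdeal R ^ N).map (algebraMap R S) ≤ maximalIdeal S ^ N := by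
    intro N
    rw [Ideal.map_pow]
    exact Ideal.pow_right_mono hle N
  -- finiteness of the lengths
  have hfR : ∀ N, Module.length R (R ⧸ maximalIdeal R ^ N) ≠ ⊤ :=
    fun N => length_quot_ne_top _ N le_rfl
  have hfS : ∀ N, Module.length S (S ⧸ maximalIdeal S ^ N) ≠ ⊤ :=
    fun N => length_quot_ne_top _ N le_rfl
  have hfF : Module.length S (S ⧸ mS) ≠ ⊤ := length_quot_ne_top _ 2 h2
  have hFpos : 1 ≤ (Module.length S (S ⧸ mS)).toNat := by
    have hne : mS ≠ ⊤ := (map_maximalIdeal_lt_top (algebraMap R S)).ne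
    have : Nontrivial (S ⧸ mS) := Ideal.Quotient.nontrivial_iff.mpr hne
    have hpos : 0 < Module.length S (S ⧸ mS) := Module.length_pos
    have h3 : (Module.length S (S ⧸ mS)).toNat ≠ 0 := by
      rw [Ne, ENat.toNat_eq_zero]
      rintro (h | h)
      · exact hpos.ne' h
      · exact hfF h
    omega
  have hmul : ∀ N, (Module.length S (S ⧸ (maximalIdeal R ^ N).map (algebraMap R S))).toNat =
      (Module.length S (S ⧸ mS)).toNat * (Module.length R (R ⧸ maximalIdeal R ^ N)).toNat := by
    intro N
    rw [length_quot_map, ENat.toNat_mul, mul_comm]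
  have hfM : ∀ N, Module.length S (S ⧸ (maximalIdeal R ^ N).map (algebraMap R S)) ≠ ⊤ := by
    intro N
    rw [length_quot_map]
    exact WithTop.mul_ne_top (hfR N) hfF
  obtain ⟨d, hd, hRt⟩ := hR
  obtain ⟨d', hd', hSt⟩ := hS
  have hdim : d' = d := by
    have := ringKrullDim_eq_of_pow_le (R := R) (S := S) 2 h2
    rw [hd, hd'] at this
    exact_mod_cast this
  subst hdim
  have heq : eS = ((Module.length S (S ⧸ mS)).toNat : ℝ) * eR := by
    refine mult_eq_of_sandwich _ _ _ d' eR eS ?_ ?_ hRt hSt
    · intro N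
      rw [← hmul N]
      exact ENat.toNat_le_toNat (length_quot_le (hpow' N)) (hfM N)
    · intro N
      rw [← hmul N]
      exact ENat.toNat_le_toNat (length_quot_le (hpow N)) (hfS (N + 1))
  have heR : 0 ≤ eR := by
    refine ge_of_tendsto' hRt (fun N => ?_)
    positivity
  refine ⟨?_, heq, hsq⟩
  rw [heq]
  have : (1 : ℝ) ≤ ((Module.length S (S ⧸ mS)).toNat : ℝ) := by exact_mod_cast hFpos
  nlinarith

end Vale.Agent.Results.P202.SquareZeroFibre
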